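import Vale.Agent.P079.Main
import Vale.Agent.P079.MilmanPettis

/-!
# P079: the fixed point property for superreflexive and for asymptotically smooth renormable
reflexive spaces, in the given norm
-/

namespace Vale.Agent.Results.P079.Combined

open Vale.Agent.P079

universe u v

/-- (1) Every Banach space isomorphic to a uniformly convex space (every superreflexive space) has
the fixed point property for nonexpansive maps in its given norm. (2) So has every reflexive
Banach space `X` isomorphic to a normed space `Y` which is asymptotically smooth: for some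
`δ > 0`, every `x` in the closed unit ball has a weak neighbourhood of zero such that
`‖x + y‖ ≤ 2 - δ` for all `y` in the closed unit ball and in that neighbourhood. (3) Every
uniformly convex Banach space is reflexive and asymptotically smooth in the sense of (2). -/
theorem result :
    (∀ (X : Type u) [NormedAddCommGroup X] [NormedSpace ℝ X] [CompleteSpace X]
      (Y : Type v) [NormedAddCommGroup Y] [NormedSpace ℝ Y] [UniformConvexSpace Y],
      Nonempty (X ≃L[ℝ] Y) → FPP X) ∧
    (∀ (X : Type u) [NormedAddCommGroup X] [NormedSpace ℝ X] [CompleteSpace X]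
      (Y : Type v) [NormedAddCommGroup Y] [NormedSpace ℝ Y],
      IsReflexive X → Nonempty (X ≃L[ℝ] Y) → (∃ δ : ℝ, 0 < δ ∧ AsympSmooth Y δ) → FPP X) ∧
    (∀ (Y : Type v) [NormedAddCommGroup Y] [NormedSpace ℝ Y] [CompleteSpace Y]
      [UniformConvexSpace Y], IsReflexive Y ∧ ∃ δ : ℝ, 0 < δ ∧ AsympSmooth Y δ) := by
  refine ⟨fun X _ _ _ Y _ _ _ ⟨e⟩ => ?_, fun X _ _ _ Y _ _ hX ⟨e⟩ ⟨δ, hδ, h⟩ =>
    fpp_of_asympSmooth hX e hδ h, fun Y _ _ _ _ => ⟨isReflexive_of_uniformConvex, ?_⟩⟩
  · have hYc : CompleteSpace Y :=
      (completeSpace_congr (e := e.toEquiv) e.isUniformEmbedding).mp inferInstance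
    have hY : IsReflexive Y := isReflexive_of_uniformConvex
    have hX : IsReflexive X := hY.of_equiv e.symm
    obtain ⟨δ, hδ, h⟩ := asympSmooth_of_uniformConvex (Y := Y)
    exact fpp_of_asympSmooth hX e hδ h
  · obtain ⟨δ, hδ, h⟩ := asympSmooth_of_uniformConvex (Y := Y)
    exact ⟨δ, hδ, h⟩

end Vale.Agent.Results.P079.Combined
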