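import Mathlib
import Vale.Agent.P079.Main

open Vale.Agent.P079

/-- Every reflexive Banach space `X` isomorphic to a normed space `Y` whose norm satisfies:
for some `δ > 0`, for every `x` in the closed unit ball there is a weak neighbourhood of zero
such that `‖x + y‖ ≤ 2 - δ` for all `y` in the closed unit ball and in that neighbourhood,
has the fixed point property for nonexpansive maps in its given norm. -/
theorem Vale.Agent.Results.P079.ReflexiveAsymptotic.result
    {X : Type*} [NormedAddCommGroup X] [NormedSpace ℝ X] [CompleteSpace X]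
    (hX : Function.Surjective (NormedSpace.inclusionInDoubleDual ℝ X))
    {Y : Type*} [NormedAddCommGroup Y] [NormedSpace ℝ Y]
    (e : X ≃L[ℝ] Y)
    (δ : ℝ) (hδ : 0 < δ)
    (hY : ∀ x : Y, ‖x‖ ≤ 1 → ∃ s : Finset (StrongDual ℝ Y), ∃ η : ℝ, 0 < η ∧
      ∀ y : Y, ‖y‖ ≤ 1 → (∀ φ ∈ s, |φ y| ≤ η) → ‖x + y‖ ≤ 2 - δ)
    (C : Set X) (hne : C.Nonempty) (hcl : IsClosed C) (hbd : Bornology.IsBounded C)
    (hcv : Convex ℝ C)
    (T : C → C) (hT : ∀ a b : C, ‖(T a : X) - (T b : X)‖ ≤ ‖(a : X) - (b : X)‖) :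
    ∃ x : C, T x = x :=
  fpp_of_asympSmooth (Y := Y) hX e hδ hY C hne hcl hbd hcv T hT
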