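import Mathlib
import Vale.Agent.P079.Main
import Vale.Agent.P079.MilmanPettis

open Vale.Agent.P079

/-- Every Banach space isomorphic to a uniformly convex space has the fixed point property for
nonexpansive maps in its given norm. -/
theorem Vale.Agent.Results.P079.Superreflexive.result
    {X : Type*} [NormedAddCommGroup X] [NormedSpace ℝ X] [CompleteSpace X]
    {Y : Type*} [NormedAddCommGroup Y] [NormedSpace ℝ Y] [UniformConvexSpace Y]
    (e : X ≃L[ℝ] Y)
    (C : Set X) (hne : C.Nonempty) (hcl : IsClosed C) (hbd : Bornology.IsBounded C)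
    (hcv : Convex ℝ C)
    (T : C → C) (hT : ∀ a b : C, ‖(T a : X) - (T b : X)‖ ≤ ‖(a : X) - (b : X)‖) :
    ∃ x : C, T x = x := by
  have hYc : CompleteSpace Y :=
    (completeSpace_congr (e := e.toEquiv) e.isUniformEmbedding).mp inferInstance
  have hY : IsReflexive Y := isReflexive_of_uniformConvex
  have hX : IsReflexive X := hY.of_equiv e.symm
  obtain ⟨δ, hδ, h⟩ := asympSmooth_of_uniformConvex (Y := Y)
  exact fpp_of_asympSmooth hX e hδ h C hne hcl hbd hcv T hT
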